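import Vale.Agent.Lib.P329V.VDefs

open Computability

namespace Vale.Agent.Lib.P329

variable {α : Type} {m : ℕ} [DecidableEq α]

/-- TASK V4.  Arrivals.  (Model: `uno_arrival`, `uexists_arrival` in `P329U/UPureB.lean`.)
Without arrival at the grading zero the grading cannot wrap around. -/
theorem vno_arrival [NeZero m] (cls : α → ZMod m) (a : α) :
    ∀ (v : List α) (c : VSt m),
      cnt (vstep cls a) (vinc cls VP0 UY0) c v = 0 → c.1.val + v.countP (vnz cls) < m
  | [], c, _ => by
    simpa using ZMod.val_lt c.1
  | x :: v, c, h => by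
    simp only [cnt] at h
    have h1 : cnt (vstep cls a) (vinc cls VP0 UY0) (vstep cls a c x) v = 0 := by omega
    have h2 : vinc cls VP0 UY0 c x = false := by
      by_contra hh
      have hh' : vinc cls VP0 UY0 c x = true := by simpa using hh
      rw [hh'] at h
      simp at h
    have ih := vno_arrival cls a v _ h1
    rw [List.countP_cons]
    by_cases hx : cls x = 0
    · rw [vstep_zero cls a c x hx] at ih
      have hfx : ¬ (vnz cls x = true) := by simpa [vnz] using hx
      rw [if_neg hfx]
      omega
    · have h0 : c.1 + 1 ≠ 0 := by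
        intro h0
        unfold vinc VP0 at h2
        rw [if_neg hx] at h2
        simp [h0] at h2
      have e1 : (vstep cls a c x).1 = c.1 + 1 := by
        rw [vstep_move cls a c x hx h0]
      rw [e1, uval_add_one _ h0] at ih
      have hfx : vnz cls x = true := by simpa [vnz] using hx
      rw [if_pos hfx]
      omega

theorem vexists_arrival [NeZero m] (cls : α → ZMod m) (a : α)
    (v : List α) (c : VSt m) (hv : m ≤ v.countP (vnz cls)) :
    ∃ v₁ y v₂, v = v₁ ++ y :: v₂ ∧ cls y ≠ 0 ∧ (v₁.foldl (vstep cls a) c).1 + 1 = 0 := by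
  have hpos : 0 < cnt (vstep cls a) (vinc cls VP0 UY0) c v := by
    by_contra hh
    have h0 : cnt (vstep cls a) (vinc cls VP0 UY0) c v = 0 := by omega
    have := vno_arrival cls a v c h0
    omega
  obtain ⟨u, x, v', e, hi, -⟩ := cnt_ivt (vstep cls a) (vinc cls VP0 UY0) v c 1 (by omega) hpos
  refine ⟨u, x, v', e, ?_⟩
  unfold vinc VP0 UY0 at hi
  by_cases hx : cls x = 0
  · rw [if_pos hx] at hi
    simp at hi
  · rw [if_neg hx] at hi
    refine ⟨hx, ?_⟩
    simpa using hi

/-- If no increment occurs, all arrivals are allowed, so all completed blocks have weight `v`.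
Induction on `w`; at a letter: `vinc cls P Y b x = false`; if `cls x ≠ 0 ∧ b.1 + 1 = 0` then
`P b.2 x = true` (`vinc_false_arr`), `varr = vfv = v` and `vinc cls VP0 UY0 b x = true`;
otherwise `varr = 0` and `vinc cls VP0 UY0 b x = false`. -/
theorem varr_sum [NeZero m] (cls : α → ZMod m) (lam : ZMod m → ℤ) (a : α) (v : ℤ)
    (P : (ZMod m → Bool) → α → Bool) (hP : ∀ U y, P U y = true → vfv lam a U y = v)
    (Y : α → Bool) :
    ∀ (w : List α) (b : VSt m), cnt (vstep cls a) (vinc cls P Y) b w = 0 →
      wsum (vstep cls a) (varr cls lam a) b w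
        = v * (cnt (vstep cls a) (vinc cls VP0 UY0) b w : ℕ)
  | [], b, _ => by simp [wsum, cnt]
  | x :: w, b, h => by
    simp only [cnt] at h
    have h1 : cnt (vstep cls a) (vinc cls P Y) (vstep cls a b x) w = 0 := by omega
    have h2 : vinc cls P Y b x = false := by
      by_contra hh
      have hh' : vinc cls P Y b x = true := by simpa using hh
      rw [hh'] at h
      simp at h
    have ih := varr_sum cls lam a v P hP Y w _ h1
    simp only [wsum, cnt]
    rw [ih]
    push_cast
    by_cases hc : cls x ≠ 0 ∧ b.1 + 1 = 0
    · have hPx := vinc_false_arr cls P Y b x hc.1 hc.2 h2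
      have e1 : varr cls lam a b x = v := by
        unfold varr
        rw [if_pos hc]
        exact hP _ _ hPx
      have e2 : vinc cls VP0 UY0 b x = true := by
        unfold vinc VP0
        rw [if_neg hc.1]
        simp [hc.2]
      rw [e1, e2]
      simp
      ring
    · have e1 : varr cls lam a b x = 0 := by
        unfold varr
        rw [if_neg hc]
      have e2 : vinc cls VP0 UY0 b x = false := by
        unfold vinc VP0 UY0
        by_cases hx : cls x = 0
        · rw [if_pos hx]
          simp
        · rw [if_neg hx]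
          have : ¬ (b.1 + 1 = 0) := fun h0 => hc ⟨hx, h0⟩
          simp [this]
      rw [e1, e2]
      simp

end Vale.Agent.Lib.P329
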