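import Vale.Agent.Lib.P329V.VDefs

open Computability

namespace Vale.Agent.Lib.P329

variable {α : Type} {m : ℕ} [DecidableEq α]

/-- TASK V3.  The weight of `k * m` copies of a word of nonzero grading vanishes. -/
theorem Wg_append (cls : α → ZMod m) (a : α) (lam : ZMod m → ℤ) :
    ∀ (u v : List α) (g : ZMod m),
      Wg cls a lam (u ++ v) g = Wg cls a lam u g + Wg cls a lam v (g + (u.map cls).sum) := by
  intro u
  induction u with
  | nil => intro v g; simp [Wg]
  | cons x u ih =>
    intro v g
    simp only [List.cons_append, Wg, List.map_cons, List.sum_cons]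
    rw [ih v (g + cls x), add_assoc, add_assoc]

theorem pw_map_sum (cls : α → ZMod m) (w : List α) :
    ∀ j : ℕ, ((pw w j).map cls).sum = j * (w.map cls).sum := by
  intro j
  induction j with
  | zero => simp [pw]
  | succ j ih =>
    rw [pw_succ', List.map_append, List.sum_append, ih]
    push_cast
    ring

theorem Wg_pw (cls : α → ZMod m) (a : α) (lam : ZMod m → ℤ) (w : List α) :
    ∀ (j : ℕ) (g : ZMod m),
      Wg cls a lam (pw w j) g
        = ∑ c ∈ Finset.range j, Wg cls a lam w (g + c * (w.map cls).sum) := by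
  intro j
  induction j with
  | zero => intro g; simp [pw, Wg]
  | succ j ih =>
    intro g
    rw [pw_succ', Wg_append, ih, Finset.sum_range_succ, pw_map_sum]

/-- induction on `w` (`Finset.sum_add_distrib`; `g + c * n + cls x = (g + cls x) + c * n`) -/
theorem Wg_sum_zero (cls : α → ZMod m) (a : α) (lam : ZMod m → ℤ) (n : ZMod m) (J : ℕ)
    (hl : ∀ i : ZMod m, ∑ c ∈ Finset.range J, lam (i + c * n) = 0) :
    ∀ (w : List α) (g : ZMod m), ∑ c ∈ Finset.range J, Wg cls a lam w (g + c * n) = 0 := by
  intro w
  induction w with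
  | nil => intro g; simp [Wg]
  | cons x w ih =>
    intro g
    simp only [Wg]
    rw [Finset.sum_add_distrib]
    have h2 : ∑ c ∈ Finset.range J, Wg cls a lam w (g + (c : ZMod m) * n + cls x) = 0 := by
      have := ih (g + cls x)
      rw [← this]
      refine Finset.sum_congr rfl fun c _ => ?_
      congr 1
      ring
    rw [h2, add_zero]
    by_cases hx : cls x ≠ 0 ∧ x = a
    · simp only [if_pos hx]
      exact hl g
    · simp only [if_neg hx]
      simp

/-- induction on `k` (`Finset.sum_range_add` after `Nat.succ_mul`; `((k * m + c : ℕ) : ZMod m) = c`) -/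
theorem HLam_mul (lam : ZMod m → ℤ) (hl : HLam lam) (n : ZMod m) (hn : n ≠ 0) (k : ℕ)
    (i : ZMod m) : ∑ c ∈ Finset.range (k * m), lam (i + c * n) = 0 := by
  induction k with
  | zero => simp
  | succ k ih =>
    rw [Nat.succ_mul, Finset.sum_range_add, ih, zero_add]
    rw [← hl n hn i]
    refine Finset.sum_congr rfl fun c _ => ?_
    congr 2
    push_cast
    simp

theorem Wg_pw_zero (cls : α → ZMod m) (a : α) (lam : ZMod m → ℤ) (hl : HLam lam) (w : List α)
    (hn : (w.map cls).sum ≠ 0) (k : ℕ) (g : ZMod m) : Wg cls a lam (pw w (k * m)) g = 0 := by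
  rw [Wg_pw]
  exact Wg_sum_zero cls a lam _ _ (HLam_mul lam hl _ hn k) w g

end Vale.Agent.Lib.P329
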