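import Vale.Agent.Lib.P329V.VGood

open Computability

namespace Vale.Agent.Lib.P329

variable {α T : Type} [DecidableEq α] [AddGroup T] [DecidableEq T]

/-- the multiples of `c`, indexed by `Z / r` -/
def viota (r : ℕ) (c : T) : ZMod r → T := fun j => j.val • c

omit [DecidableEq T] in
theorem viota_zero (r : ℕ) (c : T) : viota r c 0 = 0 := by
  simp [viota]

omit [DecidableEq T] in
theorem viota_succ (r : ℕ) [NeZero r] (c : T) (hr : r • c = 0) (j : ZMod r) :
    viota r c (j + 1) = viota r c j + c := by
  unfold viota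
  by_cases h : j + 1 = 0
  · have hlt : j.val < r := ZMod.val_lt j
    have e : ((j.val + 1 : ℕ) : ZMod r) = 0 := by
      push_cast
      rw [ZMod.natCast_val, ZMod.cast_id', id]
      exact h
    rw [ZMod.natCast_eq_zero_iff] at e
    have h2 : j.val + 1 = r := by
      have := Nat.le_of_dvd (by omega) e
      omega
    rw [h, ZMod.val_zero, zero_smul, ← succ_nsmul, h2, hr]
  · rw [uval_succ _ h, succ_nsmul]

omit [DecidableEq T] in
theorem viota_inj (c : T) (hr : 0 < addOrderOf c) :
    Function.Injective (viota (addOrderOf c) c) := by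
  have : NeZero (addOrderOf c) := ⟨hr.ne'⟩
  intro i j hij
  unfold viota at hij
  have h1 := nsmul_injOn_Iio_addOrderOf (x := c) (Set.mem_Iio.2 (ZMod.val_lt i))
    (Set.mem_Iio.2 (ZMod.val_lt j)) hij
  exact ZMod.val_injective _ h1

omit [DecidableEq α] in
theorem viota_step (r : ℕ) [NeZero r] (c : T) (hr : r • c = 0)
    (cls : α → T) (h0c : ∀ x, cls x = 0 ∨ cls x = c) (y : α) (s : ZMod r) :
    viota r c s + cls y = viota r c (s + clsZ r (fun y => decide (cls y ≠ 0)) y) := by
  unfold clsZ
  by_cases hy : cls y = 0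
  · simp [hy]
  · have hc : cls y = c := (h0c y).resolve_left hy
    simp only [ne_eq, hy, not_false_eq_true, decide_true, if_true]
    rw [viota_succ r c hr, hc]

theorem cntAt_viota (r : ℕ) [NeZero r] (c : T) (hr : r • c = 0)
    (hinj : Function.Injective (viota r c))
    (cls : α → T) (h0c : ∀ x, cls x = 0 ∨ cls x = c) (x : α) (q : ZMod r) :
    ∀ (w : List α) (s : ZMod r),
      cntAt cls x (viota r c q) (viota r c s) w
        = cntAt (clsZ r (fun y => decide (cls y ≠ 0))) x q s w
  | [], _ => rfl
  | y :: w, s => by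
    simp only [cntAt]
    rw [viota_step r c hr cls h0c y s, cntAt_viota r c hr hinj cls h0c x q w]
    simp only [hinj.eq_iff]

theorem cntAt_viota_out (r : ℕ) [NeZero r] (c : T) (hr : r • c = 0)
    (cls : α → T) (h0c : ∀ x, cls x = 0 ∨ cls x = c) (x : α) (q : T)
    (hq : ∀ j, viota r c j ≠ q) :
    ∀ (w : List α) (s : ZMod r), cntAt cls x q (viota r c s) w = 0
  | [], _ => rfl
  | y :: w, s => by
    simp only [cntAt]
    rw [viota_step r c hr cls h0c y s, cntAt_viota_out r c hr cls h0c x q hq w]
    simp [hq s]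

omit [DecidableEq α] in
theorem sum_viota (r : ℕ) [NeZero r] (c : T) (hr : r • c = 0)
    (cls : α → T) (h0c : ∀ x, cls x = 0 ∨ cls x = c) :
    ∀ (w : List α) (s : ZMod r),
      viota r c s + (w.map cls).sum
        = viota r c (s + (w.map (clsZ r (fun y => decide (cls y ≠ 0)))).sum)
  | [], s => by simp
  | y :: w, s => by
    simp only [List.map_cons, List.sum_cons]
    rw [← add_assoc, viota_step r c hr cls h0c y s, sum_viota r c hr cls h0c w, add_assoc]

/-- gradings with values `0` and `c` in an arbitrary finite group -/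
theorem GoodCount_coset [Finite T] [Fintype α] (c : T) (cls : α → T)
    (h0c : ∀ x, cls x = 0 ∨ cls x = c) : GoodCount cls := by
  have hr0 : 0 < addOrderOf c := addOrderOf_pos c
  have : NeZero (addOrderOf c) := ⟨hr0.ne'⟩
  have hr : addOrderOf c • c = 0 := addOrderOf_nsmul_eq_zero c
  have hinj := viota_inj c hr0
  intro n hn x q
  have G := GoodCount_clsZ_all (α := α) (addOrderOf c) hr0 (fun y => decide (cls y ≠ 0)) n hn x
  by_cases hq : ∃ j, viota (addOrderOf c) c j = q
  · obtain ⟨j, rfl⟩ := hq
    refine (G j).congr (fun w => ?_)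
    have := cntAt_viota (addOrderOf c) c hr hinj cls h0c x j w 0
    rw [viota_zero] at this
    rw [this]
  · have hq' : ∀ j, viota (addOrderOf c) c j ≠ q := fun j hj => hq ⟨j, hj⟩
    have : NeZero n := ⟨hn.ne'⟩
    refine ((G 0).comp (fun _ => (0 : ZMod n))).congr (fun w => ?_)
    have := cntAt_viota_out (addOrderOf c) c hr cls h0c x q hq' w 0
    rw [viota_zero] at this
    rw [this]
    simp

theorem Rec1_grade_coset [Finite T] [Fintype α] (c : T) (cls : α → T)
    (h0c : ∀ x, cls x = 0 ∨ cls x = c) : Rec1 (fun w : List α => (w.map cls).sum) := by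
  have hr0 : 0 < addOrderOf c := addOrderOf_pos c
  have : NeZero (addOrderOf c) := ⟨hr0.ne'⟩
  have hr : addOrderOf c • c = 0 := addOrderOf_nsmul_eq_zero c
  refine ((Rec1_ugrade (addOrderOf c) (clsZ (addOrderOf c) (fun y => decide (cls y ≠ 0)))).comp
    (viota (addOrderOf c) c)).congr (fun w => ?_)
  have := sum_viota (addOrderOf c) c hr cls h0c w 0
  rw [viota_zero, zero_add, zero_add] at this
  exact this.symm

end Vale.Agent.Lib.P329
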