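import Vale.Agent.Lib.P329V.VDefs

open Computability

namespace Vale.Agent.Lib.P329

variable {α : Type} {m : ℕ} [DecidableEq α]

/-- TASK V6a (three lemmas).  The weight of an arrival, as a sum over the types of arrivals:
the bracket is `1` if `cls y ≠ 0 ∧ b.1 + 1 = 0 ∧ T = (b.2, y)` and `0` otherwise
(`Finset.sum_eq_single (b.2, y)`). -/
theorem varr_expand [NeZero m] [Fintype α] (M : ℕ) (cls : α → ZMod m) (lam : ZMod m → ℤ) (a : α)
    (b : VSt m) (y : α) :
    ((varr cls lam a b y : ℤ) : ZMod M)
      = ∑ T : (ZMod m → Bool) × α, ((vfv lam a T.1 T.2 : ℤ) : ZMod M) *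
          ((if vinc cls VP0 UY0 b y then (1 : ZMod M) else 0)
            - (if vinc cls (VPt T.1 T.2) UY0 b y then (1 : ZMod M) else 0)) := by
  by_cases h0 : cls y = 0
  · have h1 : varr cls lam a b y = 0 := by
      unfold varr
      rw [if_neg]
      exact fun h => h.1 h0
    have h2 : ∀ P : (ZMod m → Bool) → α → Bool, vinc cls P UY0 b y = false := by
      intro P
      unfold vinc
      rw [if_pos h0]
      simp [UY0]
    rw [h1]
    simp [h2]
  · by_cases hb : b.1 + 1 = 0
    · have h1 : varr cls lam a b y = vfv lam a b.2 y := by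
        unfold varr
        rw [if_pos ⟨h0, hb⟩]
      have h2 : vinc cls VP0 UY0 b y = true := by
        unfold vinc
        rw [if_neg h0]
        simp [hb, VP0]
      have h3 : ∀ T : (ZMod m → Bool) × α,
          vinc cls (VPt T.1 T.2) UY0 b y = !decide (T = (b.2, y)) := by
        intro T
        unfold vinc
        rw [if_neg h0]
        simp only [hb, decide_true, Bool.true_and, VPt]
        congr 1
        rw [decide_eq_decide]
        constructor
        · rintro ⟨e1, e2⟩
          exact Prod.ext e1.symm e2.symm
        · intro e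
          rw [e]
          exact ⟨rfl, rfl⟩
      rw [h1, Finset.sum_eq_single (b.2, y)]
      · rw [h2, h3]
        simp
      · intro T _ hT
        rw [h2, h3]
        simp [hT]
      · intro h
        exact absurd (Finset.mem_univ _) h
    · have h1 : varr cls lam a b y = 0 := by
        unfold varr
        rw [if_neg]
        exact fun h => hb h.2
      have h2 : ∀ P : (ZMod m → Bool) → α → Bool, vinc cls P UY0 b y = false := by
        intro P
        unfold vinc
        rw [if_neg h0]
        simp [hb]
      rw [h1]
      simp [h2]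

omit [DecidableEq α] in
theorem wsum_intCast {B : Type} (M : ℕ) (δ₀ : B → α → B) (τ : B → α → ℤ) :
    ∀ (w : List α) (b : B),
      ((wsum δ₀ τ b w : ℤ) : ZMod M) = wsum δ₀ (fun b y => ((τ b y : ℤ) : ZMod M)) b w
  | [], b => by simp [wsum]
  | x :: w, b => by
    simp only [wsum]
    rw [Int.cast_add, wsum_intCast M δ₀ τ w]

omit [DecidableEq α] in
theorem wsum_mul_left {B R : Type} [Ring R] (δ₀ : B → α → B) (c : R) (τ : B → α → R) :
    ∀ (w : List α) (b : B), wsum δ₀ (fun b y => c * τ b y) b w = c * wsum δ₀ τ b w
  | [], b => by simp [wsum]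
  | x :: w, b => by
    simp only [wsum]
    rw [wsum_mul_left δ₀ c τ w, mul_add]

end Vale.Agent.Lib.P329
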