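import Vale.Agent.Lib.P329V.VPure
import Vale.Agent.Lib.P329V.VExp

open Computability

namespace Vale.Agent.Lib.P329

variable {α : Type} {m : ℕ} [DecidableEq α]

/-- TASK V6b.  Weights satisfying `HLam` are good.  (Model: `Rec1_udiff` in `P329U/UDiff.lean`.)
With `b₀ = vhub m` (`VJ_hub`), `Wg_tele` gives
`Wg w 0 = wsum (varr) b₀ w + vpsi lam (final state).2` (`vpsi` of the empty set is `0`).
Cast to `ZMod M` (`wsum_intCast`), `varr_expand`, `wsum_finsum`, `wsum_mul_left`,
`wsum_sub`, `cnt_cast` (all in `VExp.lean` / `P329/CountP.lean`): the first term is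
`∑ T, vfv T * (C0 w - CT w)` with `C0`, `CT` the counters of `Rec1_vlayrun` (second components,
`lay_run`) for `P = VP0` (take `v = 1`; `hP` is vacuous) and `P = VPt T.1 T.2`
(take `v = vfv lam a T.1 T.2` if this is nonzero; if it is zero the term is `0`, a constant
function, e.g. `(Rec1_vlayrun .. VP0 ..).comp (fun _ => 0)`).
The last term is a function of the final state of the run for `VP0`.
Combine with `Rec1.finsum`, `Rec1.add'`, `Rec1.sub'`, `Rec1.comp`, `Rec1.congr`. -/
theorem VGood_of_HLam [NeZero m] [Fintype α] (cls : α → ZMod m)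
    (h01 : ∀ x, cls x = 0 ∨ cls x = 1) (a : α) (lam : ZMod m → ℤ) (hl : HLam lam) :
    VGood cls a lam := by
  intro M hM
  have : NeZero M := ⟨hM.ne'⟩
  have R0 := Rec1_vlayrun M cls h01 a lam hl 1 one_ne_zero VP0
    (by intro U y h; simp [VP0] at h) UY0 (vhub m, 0)
  have C0 := R0.comp Prod.snd
  have F := R0.comp (fun q => ((vpsi lam q.1.2 : ℤ) : ZMod M))
  have HT : ∀ T : (ZMod m → Bool) × α, Rec1 (fun w : List α =>
      ((vfv lam a T.1 T.2 : ℤ) : ZMod M) *
        (((cnt (vstep cls a) (vinc cls VP0 UY0) (vhub m) w : ℕ) : ZMod M)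
          - ((cnt (vstep cls a) (vinc cls (VPt T.1 T.2) UY0) (vhub m) w : ℕ) : ZMod M))) := by
    intro T
    by_cases hv : vfv lam a T.1 T.2 = 0
    · refine (R0.comp (fun _ => (0 : ZMod M))).congr (fun w => ?_)
      rw [hv]
      simp
    · have RT := Rec1_vlayrun M cls h01 a lam hl _ hv (VPt T.1 T.2) (by
        intro U y h
        simp only [VPt, decide_eq_true_eq] at h
        rw [h.1, h.2]) UY0 (vhub m, 0)
      have CT := RT.comp Prod.snd
      refine ((C0.sub' CT).comp
        (fun z => ((vfv lam a T.1 T.2 : ℤ) : ZMod M) * z)).congr (fun w => ?_)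
      simp only [lay_run, zero_add]
  refine ((Rec1.finsum HT).add' F).congr (fun w => ?_)
  simp only [lay_run]
  have h := Wg_tele cls h01 lam a w (vhub m) VJ_hub
  have e0 : (vhub m).1 = 0 := rfl
  have e1 : vpsi lam (vhub m).2 = 0 := by simp [vpsi, vhub]
  rw [e0, e1, sub_zero] at h
  rw [h]
  push_cast
  congr 1
  rw [wsum_intCast]
  have e2 : (fun (b : VSt m) (y : α) => ((varr cls lam a b y : ℤ) : ZMod M))
      = fun b y => ∑ T : (ZMod m → Bool) × α, ((vfv lam a T.1 T.2 : ℤ) : ZMod M) *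
          ((if vinc cls VP0 UY0 b y then (1 : ZMod M) else 0)
            - (if vinc cls (VPt T.1 T.2) UY0 b y then (1 : ZMod M) else 0)) := by
    funext b y
    exact varr_expand M cls lam a b y
  rw [e2, wsum_finsum (vstep cls a) Finset.univ
    (fun (T : (ZMod m → Bool) × α) b y => ((vfv lam a T.1 T.2 : ℤ) : ZMod M) *
          ((if vinc cls VP0 UY0 b y then (1 : ZMod M) else 0)
            - (if vinc cls (VPt T.1 T.2) UY0 b y then (1 : ZMod M) else 0)))]
  refine Finset.sum_congr rfl (fun T _ => ?_)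
  rw [wsum_mul_left, wsum_sub, ← cnt_cast, ← cnt_cast]

end Vale.Agent.Lib.P329
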