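import Vale.Agent.Lib.P329U.UGood

open Computability

namespace Vale.Agent.Lib.P329

variable {α : Type} {m : ℕ} [DecidableEq α]

/-- states: the grading, and the set of gradings at which the letter `a` has been read since the
last visit of the grading zero -/
abbrev VSt (m : ℕ) : Type := ZMod m × (ZMod m → Bool)

def vhub (m : ℕ) : VSt m := (0, fun _ => false)

def vstep (cls : α → ZMod m) (a : α) : VSt m → α → VSt m :=
  fun b x => if cls x = 0 then b else if b.1 + 1 = 0 then vhub m
    else (b.1 + 1, if x = a then Function.update b.2 b.1 true else b.2)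

/-- increments: arrivals at the grading zero, except for the ones allowed by `P`, and letters of
grading zero from `Y` read at the hub -/
def vinc [NeZero m] (cls : α → ZMod m) (P : (ZMod m → Bool) → α → Bool) (Y : α → Bool) :
    VSt m → α → Bool :=
  fun b x => if cls x = 0 then (decide (b = vhub m) && Y x)
    else (decide (b.1 + 1 = 0) && !(P b.2 x))

/-- no arrival is allowed -/
def VP0 : (ZMod m → Bool) → α → Bool := fun _ _ => false

/-- allowed arrivals: the ones with recorded set `U₀` and arriving letter `y₀` -/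
def VPt [NeZero m] (U₀ : ZMod m → Bool) (y₀ : α) : (ZMod m → Bool) → α → Bool :=
  fun U y => decide (U = U₀ ∧ y = y₀)

/-- weight of a set of gradings -/
def vpsi [NeZero m] (lam : ZMod m → ℤ) (U : ZMod m → Bool) : ℤ := ∑ h, if U h then lam h else 0

/-- weight of the block completed by an arrival with the letter `y` -/
def vfv [NeZero m] (lam : ZMod m → ℤ) (a : α) (U : ZMod m → Bool) (y : α) : ℤ :=
  vpsi lam U + if y = a then lam (-1) else 0

/-- weight function of arrivals -/
def varr [NeZero m] (cls : α → ZMod m) (lam : ZMod m → ℤ) (a : α) : VSt m → α → ℤ :=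
  fun b y => if cls y ≠ 0 ∧ b.1 + 1 = 0 then vfv lam a b.2 y else 0

/-- the weights sum to zero along every arithmetic progression of nonzero step -/
def HLam (lam : ZMod m → ℤ) : Prop :=
  ∀ n : ZMod m, n ≠ 0 → ∀ i : ZMod m, ∑ c ∈ Finset.range m, lam (i + c * n) = 0

/-- weighted number of occurrences of `a`, the weight being a function of the grading -/
def Wg (cls : α → ZMod m) (a : α) (lam : ZMod m → ℤ) : List α → ZMod m → ℤ
  | [], _ => 0
  | x :: v, g => (if cls x ≠ 0 ∧ x = a then lam g else 0) + Wg cls a lam v (g + cls x)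

/-- the recorded gradings are smaller than the current one -/
def VJ (b : VSt m) : Prop := ∀ h, b.2 h = true → h.val < b.1.val

/-- sum of `q` translates -/
def avg (q : ℕ) (e : ZMod m) (lam : ZMod m → ℤ) : ZMod m → ℤ :=
  fun i => ∑ j ∈ Finset.range q, lam (i + j * e)

/-- the weighted count is recognized in star height one, for all moduli -/
def VGood (cls : α → ZMod m) (a : α) (lam : ZMod m → ℤ) : Prop :=
  ∀ M : ℕ, 0 < M → Rec1 (fun w : List α => ((Wg cls a lam w 0 : ℤ) : ZMod M))

/-- letters of nonzero grading -/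
def vnz (cls : α → ZMod m) : α → Bool := fun x => decide (cls x ≠ 0)

theorem vstep_fst (cls : α → ZMod m) (h01 : ∀ x, cls x = 0 ∨ cls x = 1) (a : α)
    (b : VSt m) (x : α) : (vstep cls a b x).1 = b.1 + cls x := by
  unfold vstep
  rcases h01 x with h | h
  · rw [if_pos h, h, add_zero]
  · by_cases h0 : cls x = 0
    · rw [if_pos h0, h0, add_zero]
    · rw [if_neg h0, h]
      by_cases h2 : b.1 + 1 = 0
      · rw [if_pos h2]; exact h2.symm
      · rw [if_neg h2]

theorem vrun_fst (cls : α → ZMod m) (h01 : ∀ x, cls x = 0 ∨ cls x = 1) (a : α) :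
    ∀ (w : List α) (b : VSt m), (w.foldl (vstep cls a) b).1 = b.1 + (w.map cls).sum
  | [], b => by simp
  | x :: w, b => by
    simp only [List.foldl_cons, List.map_cons, List.sum_cons]
    rw [vrun_fst cls h01 a w, vstep_fst cls h01, add_assoc]

theorem vstep_zero (cls : α → ZMod m) (a : α) (c : VSt m) (y : α) (hy : cls y = 0) :
    vstep cls a c y = c := by
  unfold vstep
  rw [if_pos hy]

theorem vstep_arrive (cls : α → ZMod m) (a : α) (c : VSt m) (y : α)
    (hy : cls y ≠ 0) (h : c.1 + 1 = 0) : vstep cls a c y = vhub m := by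
  unfold vstep
  rw [if_neg hy, if_pos h]

theorem vstep_move (cls : α → ZMod m) (a : α) (c : VSt m) (y : α)
    (hy : cls y ≠ 0) (h : c.1 + 1 ≠ 0) :
    vstep cls a c y = (c.1 + 1, if y = a then Function.update c.2 c.1 true else c.2) := by
  unfold vstep
  rw [if_neg hy, if_neg h]

theorem vinc_hub [NeZero m] (cls : α → ZMod m) (a : α) (P : (ZMod m → Bool) → α → Bool)
    (Y : α → Bool) (b : VSt m) (x : α) (h : vinc cls P Y b x = true) :
    vstep cls a b x = vhub m := by
  unfold vinc at h
  split_ifs at h with h0
  · simp only [Bool.and_eq_true, decide_eq_true_eq] at h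
    rw [vstep_zero cls a b x h0]
    exact h.1
  · simp only [Bool.and_eq_true, decide_eq_true_eq] at h
    exact vstep_arrive cls a b x h0 h.1

theorem vinc_false_arr [NeZero m] (cls : α → ZMod m) (P : (ZMod m → Bool) → α → Bool)
    (Y : α → Bool) (c : VSt m) (y : α) (hy : cls y ≠ 0) (h : c.1 + 1 = 0)
    (hi : vinc cls P Y c y = false) : P c.2 y = true := by
  unfold vinc at hi
  rw [if_neg hy] at hi
  simpa [h] using hi

theorem VJ_hub : VJ (vhub m) := by
  intro h hh
  simp [vhub] at hh

end Vale.Agent.Lib.P329
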