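import Vale.Agent.Lib.P329V.VSat

open Computability

namespace Vale.Agent.Lib.P329

variable {α : Type} [DecidableEq α]

/-- the weighted count for averaged weights, expressed by the counts of the quotient -/
theorem Wg_avg_eq (q d : ℕ) [NeZero (q * d)] (hq : 0 < q) (hd : 0 < d)
    (Z : α → Bool) (a : α) (ha : clsZ (q * d) Z a ≠ 0) (lam : ZMod (q * d) → ℤ) (w : List α) :
    Wg (clsZ (q * d) Z) a (avg q (-((d : ℕ) : ZMod (q * d))) lam) w 0
      = ∑ h : ZMod (q * d), lam h * (cntAt (clsZ d Z) a ((h.val : ℕ) : ZMod d) 0 w : ℤ) := by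
  rw [Wg_expand _ a ha]
  unfold avg
  simp only [Finset.sum_mul]
  rw [Finset.sum_comm]
  have h1 : ∀ j ∈ Finset.range q,
      ∑ h : ZMod (q * d), lam (h + (j : ZMod (q * d)) * (-((d : ℕ) : ZMod (q * d))))
          * (cntAt (clsZ (q * d) Z) a h 0 w : ℤ)
        = ∑ h : ZMod (q * d), lam h
          * (cntAt (clsZ (q * d) Z) a (h + (j : ZMod (q * d)) * ((d : ℕ) : ZMod (q * d))) 0 w : ℤ) := by
    intro j _
    rw [← Equiv.sum_comp (Equiv.addRight ((j : ZMod (q * d)) * ((d : ℕ) : ZMod (q * d))))]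
    apply Finset.sum_congr rfl
    intro h _
    simp only [Equiv.coe_addRight]
    congr 2
    ring
  rw [Finset.sum_congr rfl h1, Finset.sum_comm]
  apply Finset.sum_congr rfl
  intro h _
  rw [← Finset.mul_sum]
  congr 1
  have h2 := cntAt_lift q d hq hd Z a h.val w 0
  rw [← Nat.cast_sum]
  have h3 : ∑ j ∈ Finset.range q,
      cntAt (clsZ (q * d) Z) a (h + (j : ZMod (q * d)) * ((d : ℕ) : ZMod (q * d))) 0 w
      = cntAt (clsZ d Z) a ((h.val : ℕ) : ZMod d) 0 w := by
    rw [← Nat.cast_zero (R := ZMod d), ← h2]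
    apply Finset.sum_congr rfl
    intro j _
    congr 1
    · push_cast
      rw [ZMod.natCast_val, ZMod.cast_id', id]
    · simp
  rw [h3]

/-- TASK V11.  Averaged weights are good, by the result for the quotient `Z / d`.
`subst hm`.  By `Wg_expand`,
`Wg (avg q (-d) lam) w 0 = ∑ h, (∑ j ∈ range q, lam (h + j * (-d))) * N h`, `N h = cntAt .. a h 0 w`.
Exchange the sums and substitute `h ↦ h + j * d` (`Equiv.sum_comp (Equiv.addRight _)` or
`Fintype.sum_equiv`): `= ∑ h, lam h * ∑ j ∈ range q, N (h + j * d)`, and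
`∑ j ∈ range q, N (h + j * d) = cntAt (clsZ d Z) a (h.val : ZMod d) 0 w` by `cntAt_lift` with
`h := h.val`, `s := 0` (see the proof of `hS` in `GoodCount_step`, `P329U/UGood.lean`).  Each of
these is `Rec1` modulo `M` by `ih`; combine with `Rec1.finsum`, `Rec1.comp (fun z => c * z)`,
`Rec1.congr`. -/
theorem VGood_avg [Fintype α] (q d m : ℕ) [NeZero m] (hq : 0 < q) (hd : 0 < d) (hm : m = q * d)
    (Z : α → Bool) (a : α) (ha : clsZ m Z a ≠ 0) (ih : GoodCount (clsZ d Z))
    (lam : ZMod m → ℤ) : VGood (clsZ m Z) a (avg q (-((d : ℕ) : ZMod m)) lam) := by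
  subst hm
  intro M hM
  have : NeZero M := ⟨hM.ne'⟩
  have h1 : ∀ h : ZMod (q * d), Rec1 (fun w : List α =>
      ((lam h : ℤ) : ZMod M) * (cntAt (clsZ d Z) a ((h.val : ℕ) : ZMod d) 0 w : ZMod M)) :=
    fun h => (ih M hM a ((h.val : ℕ) : ZMod d)).comp (fun z => ((lam h : ℤ) : ZMod M) * z)
  refine (Rec1.finsum h1).congr ?_
  intro w
  rw [Wg_avg_eq q d hq hd Z a ha lam w]
  push_cast
  rfl

end Vale.Agent.Lib.P329
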