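import Mathlib

namespace Vale.Agent.Lib.P329

/-- TASK V8.  Every nonzero subgroup of `Z / m` contains the subgroup of order `q` for some prime
`q` dividing `m`.  (`g = Nat.gcd n.val m` divides `m` and `g < m` since `n ≠ 0`; let `q` be a prime
factor of `m / g` (`Nat.exists_prime_and_dvd`), so `m / q = g * s` with `s = m / g / q`; Bezout
(`Nat.gcd_eq_gcd_ab`, cast to `ZMod m`) gives `c` with `c * n = g` in `ZMod m`; take
`u = (c * s).val`.  Compare `exists_mul_eq` in `P329U/UNT.lean`.) -/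
theorem exists_prime_mul_eq (m : ℕ) [NeZero m] (n : ZMod m) (hn : n ≠ 0) :
    ∃ q : ℕ, q.Prime ∧ q ∣ m ∧ ∃ u : ℕ, (u : ZMod m) * n = ((m / q : ℕ) : ZMod m) := by
  have hm0 : m ≠ 0 := NeZero.ne m
  have hmpos : 0 < m := Nat.pos_of_ne_zero hm0
  set g : ℕ := Nat.gcd n.val m with hg
  have hgm : g ∣ m := Nat.gcd_dvd_right _ _
  have hgn : g ∣ n.val := Nat.gcd_dvd_left _ _
  have hval0 : n.val ≠ 0 := by
    intro h
    exact hn ((ZMod.val_eq_zero n).mp h)
  have hvallt : n.val < m := ZMod.val_lt n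
  have hgpos : 0 < g := Nat.gcd_pos_of_pos_right _ hmpos
  have hglt : g < m := lt_of_le_of_lt (Nat.le_of_dvd (Nat.pos_of_ne_zero hval0) hgn) hvallt
  obtain ⟨k, hk⟩ := hgm
  have hk1 : k ≠ 1 := by
    rintro rfl
    omega
  obtain ⟨q, hq, hqk⟩ := Nat.exists_prime_and_dvd hk1
  obtain ⟨s, hs⟩ := hqk
  have hmq : m = q * (g * s) := by
    rw [hk, hs]; ring
  have hdiv : m / q = g * s := by
    conv_lhs => rw [hmq]
    exact Nat.mul_div_cancel_left _ hq.pos
  have hbez : ((g : ℕ) : ℤ) = (n.val : ℤ) * Nat.gcdA n.val m + (m : ℤ) * Nat.gcdB n.val m :=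
    Nat.gcd_eq_gcd_ab n.val m
  have hbz : ((g : ℕ) : ZMod m) = n * ((Nat.gcdA n.val m : ℤ) : ZMod m) := by
    have h1 := congrArg (fun z : ℤ => (z : ZMod m)) hbez
    push_cast at h1
    rw [ZMod.natCast_self, zero_mul, add_zero, ZMod.natCast_zmod_val] at h1
    exact h1
  refine ⟨q, hq, ⟨g * s, hmq⟩, ((((Nat.gcdA n.val m : ℤ) : ZMod m)) * (s : ZMod m)).val, ?_⟩
  rw [ZMod.natCast_zmod_val, hdiv]
  push_cast
  rw [hbz]
  ring

end Vale.Agent.Lib.P329
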