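import Vale.Agent.Lib.P329V.VDefs
import Vale.Agent.Lib.P329V.VNT

open Computability

namespace Vale.Agent.Lib.P329

variable {m : ℕ}

/-- TASK V9.  The operators `avg`. -/
theorem range_shift {R : Type} [AddCommGroup R] (q : ℕ) (f : ℕ → R) (h : f q = f 0) :
    ∑ j ∈ Finset.range q, f (j + 1) = ∑ j ∈ Finset.range q, f j := by
  have h1 := Finset.sum_range_succ f q
  have h2 := Finset.sum_range_succ' f q
  rw [h1, h] at h2
  exact (add_right_cancel h2).symm

/-- `range_shift` with `f j = lam (i + j * e)` -/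
theorem avg_shift (q : ℕ) (e : ZMod m) (hqe : (q : ZMod m) * e = 0) (lam : ZMod m → ℤ)
    (i : ZMod m) : avg q e lam (i + e) = avg q e lam i := by
  unfold avg
  have h := range_shift q (fun j : ℕ => lam (i + (j : ZMod m) * e)) (by simp [hqe])
  rw [← h]
  apply Finset.sum_congr rfl
  intro j _
  congr 1
  push_cast
  ring

theorem avg_shift_mul (q : ℕ) (e : ZMod m) (hqe : (q : ZMod m) * e = 0) (lam : ZMod m → ℤ)
    (i : ZMod m) (j : ℕ) : avg q e lam (i + j * e) = avg q e lam i := by
  induction j with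
  | zero => simp
  | succ j ih =>
    have h : i + ((j + 1 : ℕ) : ZMod m) * e = (i + (j : ZMod m) * e) + e := by
      push_cast
      ring
    rw [h, avg_shift q e hqe, ih]

theorem avg_avg (q : ℕ) (e : ZMod m) (hqe : (q : ZMod m) * e = 0) (lam : ZMod m → ℤ) :
    avg q e (avg q e lam) = fun i => (q : ℤ) * avg q e lam i := by
  funext i
  have h : avg q e (avg q e lam) i = ∑ j ∈ Finset.range q, avg q e lam (i + (j : ZMod m) * e) := rfl
  rw [h, Finset.sum_congr rfl (fun j _ => avg_shift_mul q e hqe lam i j)]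
  simp

theorem avg_comm (q q' : ℕ) (e e' : ZMod m) (lam : ZMod m → ℤ) :
    avg q e (avg q' e' lam) = avg q' e' (avg q e lam) := by
  funext i
  unfold avg
  rw [Finset.sum_comm]
  apply Finset.sum_congr rfl
  intro j _
  apply Finset.sum_congr rfl
  intro k _
  congr 1
  ring

theorem avg_lin (q : ℕ) (e : ZMod m) (c : ℤ) (lam mu : ZMod m → ℤ) :
    avg q e (fun i => c * lam i - mu i) = fun i => c * avg q e lam i - avg q e mu i := by
  funext i
  unfold avg
  rw [Finset.sum_sub_distrib, Finset.mul_sum]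

theorem avg_zero (q : ℕ) (e : ZMod m) : avg q e (fun _ => (0 : ℤ)) = fun _ => 0 := by
  funext i
  simp [avg]

/-- Let `n ≠ 0`, `S i = ∑ c ∈ range m, lam (i + c * n)`.  `S (i + n) = S i` (`range_shift`,
`(m : ZMod m) = 0`), hence `S (i + u * n) = S i` for all naturals `u`, hence, with `q`, `u` from
`exists_prime_mul_eq`, `S (i + j * (-(m / q))) = S i` for all naturals `j`
(`-(m/q) = (m - 1) * (m / q)` in `ZMod m`, or prove invariance under `i - n` too).  So
`q * S i = ∑ j ∈ range q, S (i + j * e) = ∑ c, avg q e lam (i + c * n) = 0` (`Finset.sum_comm`),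
and `q ≠ 0`. -/
theorem HLam_of_avg [NeZero m] (lam : ZMod m → ℤ)
    (h : ∀ q : ℕ, q.Prime → q ∣ m → avg q (-((m / q : ℕ) : ZMod m)) lam = fun _ => 0) :
    HLam lam := by
  intro n hn i
  obtain ⟨q, hq, hqm, u, hu⟩ := exists_prime_mul_eq m n hn
  have hmn : (m : ZMod m) * n = 0 := by rw [ZMod.natCast_self, zero_mul]
  have hS : ∀ i : ZMod m, ∑ c ∈ Finset.range m, lam (i + c * n) = avg m n lam i := fun _ => rfl
  rw [hS]
  set e : ZMod m := -((m / q : ℕ) : ZMod m) with he
  have hinv : ∀ j : ℕ, avg m n lam (i + (j : ZMod m) * e) = avg m n lam i := by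
    intro j
    have h1 := avg_shift_mul m n hmn lam (i + (j : ZMod m) * e) (j * u)
    have h2 : i + (j : ZMod m) * e + ((j * u : ℕ) : ZMod m) * n = i := by
      push_cast
      rw [he, ← hu]
      ring
    rw [h2] at h1
    exact h1.symm
  have h3 : avg q e (avg m n lam) i = (q : ℤ) * avg m n lam i := by
    have h4 : avg q e (avg m n lam) i
        = ∑ j ∈ Finset.range q, avg m n lam (i + (j : ZMod m) * e) := rfl
    rw [h4, Finset.sum_congr rfl (fun j _ => hinv j)]
    simp
  rw [avg_comm, h q hq hqm, avg_zero] at h3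
  have hq0 : (q : ℤ) ≠ 0 := by exact_mod_cast hq.ne_zero
  rcases mul_eq_zero.mp h3.symm with h5 | h5
  · exact absurd h5 hq0
  · exact h5

end Vale.Agent.Lib.P329
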