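import Vale.Agent.Lib.P329V.VPure

open Computability

namespace Vale.Agent.Lib.P329

variable {α : Type} {m : ℕ} [DecidableEq α]

theorem cntAt_veq (cls : α → ZMod m) (h01 : ∀ x, cls x = 0 ∨ cls x = 1) (a : α)
    (x : α) (q t : ZMod m) :
    ∀ (w : List α) (b : VSt m),
      cntAt cls x q (b.1 + t) w
        = cnt (vstep cls a) (fun b y => decide (y = x ∧ b.1 + t = q)) b w
  | [], _ => rfl
  | y :: w, b => by
    simp only [cntAt, cnt]
    have e : b.1 + t + cls y = (vstep cls a b y).1 + t := by
      rw [vstep_fst cls h01]; ring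
    rw [e, cntAt_veq cls h01 a x q t w]
    simp

theorem VJ_zero [NeZero m] (b : VSt m) (hJ : VJ b) (h0 : b.1 = 0) : b = vhub m := by
  refine Prod.ext h0 ?_
  funext h
  show b.2 h = false
  by_contra hh
  have hh' : b.2 h = true := by simpa using hh
  have := hJ h hh'
  rw [h0] at this
  simp at this

theorem vzero_id {R : Type} [AddCommGroup R] [One R] [NeZero m] (cls : α → ZMod m)
    (x : α) (hx : cls x = 0) (q : ZMod m)
    (b : VSt m) (y : α) (hJ : VJ b) :
    (if decide (y = x ∧ b.1 + q = q) then (1 : R) else 0)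
    = (if vinc cls VP0 (fun y => decide (y = x)) b y then (1 : R) else 0)
        - (if vinc cls VP0 UY0 b y then (1 : R) else 0) := by
  have e1 : b.1 + q = q ↔ b.1 = 0 := by
    constructor
    · intro hh; linear_combination hh
    · intro hh; linear_combination hh
  simp only [e1]
  unfold vinc VP0 UY0
  by_cases hy0 : cls y = 0
  · by_cases h0 : b.1 = 0
    · have hb : b = vhub m := VJ_zero b hJ h0
      by_cases hyx : y = x
      · subst hyx
        have h1 : (vhub m).1 = 0 := rfl
        simp [hy0, hb, h1]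
      · simp [hy0, hyx]
    · have hb : b ≠ vhub m := by
        intro hh
        apply h0
        rw [hh]
        rfl
      simp [hy0, h0, hb]
  · have hyx : y ≠ x := by
      intro hh; rw [hh] at hy0; exact hy0 hx
    simp [hy0, hyx]

/-- Graded counts of a letter of grading zero. -/
theorem Rec1_vzero [NeZero m] [Fintype α] (M : ℕ) [NeZero M]
    (cls : α → ZMod m) (h01 : ∀ x, cls x = 0 ∨ cls x = 1)
    (x : α) (hx : cls x = 0) (q : ZMod m) :
    Rec1 (fun w : List α => ((cntAt cls x q 0 w : ℕ) : ZMod M)) := by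
  set b₀ : VSt m := (-q, fun _ => false) with hb₀
  have hl : HLam (fun _ : ZMod m => (0 : ℤ)) := by
    intro n _ i
    simp
  have hP : ∀ (U : ZMod m → Bool) (y : α), (VP0 : (ZMod m → Bool) → α → Bool) U y = true →
      vfv (fun _ : ZMod m => (0 : ℤ)) x U y = 1 := by
    intro U y h
    simp [VP0] at h
  have R1 := Rec1_vlayrun M cls h01 x (fun _ => 0) hl 1 one_ne_zero VP0 hP
    (fun y => decide (y = x)) (b₀, 0)
  have R0 := Rec1_vlayrun M cls h01 x (fun _ => 0) hl 1 one_ne_zero VP0 hP UY0 (b₀, 0)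
  have C1 := R1.comp Prod.snd
  have C0 := R0.comp Prod.snd
  refine (C1.sub' C0).congr (fun w => ?_)
  simp only [lay_run, zero_add]
  have z : (0 : ZMod m) = b₀.1 + q := by simp [hb₀]
  rw [z, cntAt_veq cls h01 x x q q w b₀]
  rw [cnt_cast, cnt_cast, cnt_cast, ← wsum_sub]
  exact (wsum_congr (vstep cls x) _ _ VJ
    (fun b y hb => VJ_step cls x b y hb)
    (fun b y hJ => vzero_id (R := ZMod M) cls x hx q b y hJ) w b₀
    (by intro h hh; simp [hb₀] at hh)).symm

end Vale.Agent.Lib.P329
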