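import Vale.Agent.Lib.P329V.VCount
import Vale.Agent.Lib.P329V.VZero
import Vale.Agent.Lib.P329V.VOps
import Vale.Agent.Lib.P329V.VLift

open Computability

namespace Vale.Agent.Lib.P329

variable {α : Type} [DecidableEq α]

theorem vq_mul (m q : ℕ) (hq : q ∣ m) : (q : ZMod m) * (-((m / q : ℕ) : ZMod m)) = 0 := by
  rw [mul_neg, ← Nat.cast_mul, Nat.mul_div_cancel' hq, ZMod.natCast_self, neg_zero]

/-- induction on the set of primes whose average is not assumed to vanish -/
theorem VGood_primes [Fintype α] (m : ℕ) [NeZero m] (Z : α → Bool) (a : α)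
    (ha : clsZ m Z a ≠ 0)
    (ih : ∀ d : ℕ, 0 < d → d < m → GoodCount (clsZ d Z)) (S : Finset ℕ) :
    (∀ q ∈ S, q.Prime ∧ q ∣ m) → ∀ lam : ZMod m → ℤ,
      (∀ q : ℕ, q.Prime → q ∣ m → q ∉ S → avg q (-((m / q : ℕ) : ZMod m)) lam = fun _ => 0) →
      VGood (clsZ m Z) a lam := by
  induction S using Finset.induction_on with
  | empty =>
    intro _ lam h
    exact VGood_of_HLam _ (clsZ_01 m Z) a lam
      (HLam_of_avg lam (fun q hq hqm => h q hq hqm (by simp)))
  | insert q S hqS IH =>
    intro hS lam h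
    obtain ⟨hqp, hqm⟩ := hS q (Finset.mem_insert_self q S)
    have hm0 : 0 < m := Nat.pos_of_ne_zero (NeZero.ne m)
    have hS' : ∀ q' ∈ S, q'.Prime ∧ q' ∣ m := fun q' hq' => hS q' (Finset.mem_insert_of_mem hq')
    set e : ZMod m := -((m / q : ℕ) : ZMod m) with he
    have hqe : (q : ZMod m) * e = 0 := vq_mul m q hqm
    have hd0 : 0 < m / q := Nat.div_pos (Nat.le_of_dvd hm0 hqm) hqp.pos
    have hdm : m / q < m := Nat.div_lt_self hm0 hqp.one_lt
    have hA : VGood (clsZ m Z) a (avg q e lam) :=
      VGood_avg q (m / q) m hqp.pos hd0 (Nat.mul_div_cancel' hqm).symm Z a ha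
        (ih (m / q) hd0 hdm) lam
    have hD : VGood (clsZ m Z) a (fun i => (q : ℤ) * lam i - avg q e lam i) := by
      apply IH hS'
      intro q' hq'p hq'm hq'S
      rw [avg_lin]
      by_cases hqq : q' = q
      · subst hqq
        rw [← he, avg_avg q' e hqe]
        funext i
        simp
      · have h1 := h q' hq'p hq'm (by
          intro hmem
          rcases Finset.mem_insert.1 hmem with h2 | h2
          · exact hqq h2
          · exact hq'S h2)
        rw [avg_comm, h1, avg_zero]
        funext i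
        simp
    have hsum := hD.add hA
    apply VGood.sat q hqp.pos
    have e2 : (fun i => (q : ℤ) * lam i - avg q e lam i + avg q e lam i)
        = fun i => (q : ℤ) * lam i := by
      funext i
      ring
    rw [e2] at hsum
    exact hsum

theorem GoodCount_clsZ_all [Fintype α] :
    ∀ (m : ℕ), 0 < m → ∀ Z : α → Bool, GoodCount (clsZ m Z) := by
  intro m
  induction m using Nat.strong_induction_on with
  | _ m IH =>
    intro hm Z n hn x q
    have i1 : NeZero m := ⟨hm.ne'⟩
    have i2 : NeZero n := ⟨hn.ne'⟩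
    by_cases hx : clsZ m Z x = 0
    · exact Rec1_vzero n (clsZ m Z) (clsZ_01 m Z) x hx q
    · have hg := VGood_primes m Z x hx (fun d hd hdm => IH d hdm hd Z) m.primeFactors
        (fun q' hq' => ⟨Nat.prime_of_mem_primeFactors hq', Nat.dvd_of_mem_primeFactors hq'⟩)
        (fun i => if i = q then 1 else 0)
        (fun q' hq'p hq'm hq'S =>
          absurd (Nat.mem_primeFactors.2 ⟨hq'p, hq'm, hm.ne'⟩) hq'S)
      refine (hg n hn).congr (fun w => ?_)
      rw [Wg_expand _ x hx]
      simp

theorem GoodCount_unit_all [Fintype α] (m : ℕ) (hm : 0 < m) (cls : α → ZMod m)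
    (h01 : ∀ x, cls x = 0 ∨ cls x = 1) : GoodCount cls := by
  have e : cls = clsZ m (fun x => decide (cls x ≠ 0)) := by
    funext x
    unfold clsZ
    rcases h01 x with h | h
    · simp [h]
    · by_cases h0 : cls x = 0
      · simp [h0]
      · simp [h0, h]
  rw [e]
  exact GoodCount_clsZ_all m hm _

end Vale.Agent.Lib.P329
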