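import Vale.Agent.Lib.P329V.VDefs

open Computability

namespace Vale.Agent.Lib.P329

variable {α : Type} {m : ℕ} [DecidableEq α]

/-- TASK V2.  Invariant, local identity, telescoping.  (Model: `UJ_step`, `ulocal_id`,
`cntAt_ueq` and the end of `Rec1_udiff` in `P329U/UDiff.lean`.) -/
theorem VJ_step [NeZero m] (cls : α → ZMod m) (a : α) (b : VSt m) (x : α) (h : VJ b) :
    VJ (vstep cls a b x) := by
  by_cases hx : cls x = 0
  · rw [vstep_zero cls a b x hx]; exact h
  · by_cases h0 : b.1 + 1 = 0
    · rw [vstep_arrive cls a b x hx h0]; exact VJ_hub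
    · rw [vstep_move cls a b x hx h0]
      intro g hg
      show g.val < (b.1 + 1).val
      rw [uval_succ _ h0]
      by_cases hxa : x = a
      · simp only [if_pos hxa] at hg
        by_cases hgb : g = b.1
        · rw [hgb]; omega
        · rw [Function.update_of_ne hgb] at hg
          have := h g hg
          omega
      · simp only [if_neg hxa] at hg
        have := h g hg
        omega

theorem VJ_run [NeZero m] (cls : α → ZMod m) (a : α) :
    ∀ (w : List α) (b : VSt m), VJ b → VJ (w.foldl (vstep cls a) b)
  | [], _, h => h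
  | x :: w, b, h => by
    rw [List.foldl_cons]
    exact VJ_run cls a w _ (VJ_step cls a b x h)

/-- adding a new grading to the recorded set adds its weight -/
theorem vpsi_update [NeZero m] (lam : ZMod m → ℤ) (U : ZMod m → Bool) (g : ZMod m)
    (hg : U g = false) : vpsi lam (Function.update U g true) = vpsi lam U + lam g := by
  unfold vpsi
  have h1 : ∀ h : ZMod m, (if Function.update U g true h then lam h else 0)
      = (if U h then lam h else 0) + (if h = g then lam g else 0) := by
    intro h
    by_cases hh : h = g
    · subst hh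
      simp [hg]
    · rw [Function.update_of_ne hh]
      simp [hh]
  rw [Finset.sum_congr rfl (fun h _ => h1 h), Finset.sum_add_distrib]
  simp

/-- cases: `cls y = 0`; arrival (`b.1 = -1`, the new recorded set is empty, `vpsi = 0`); move with
`y = a` (`vpsi_update`, `b.2 b.1 = false` by `hJ`) ; move with `y ≠ a`. -/
theorem vlocal_id [NeZero m] (cls : α → ZMod m) (lam : ZMod m → ℤ) (a : α)
    (b : VSt m) (y : α) (hJ : VJ b) :
    (if cls y ≠ 0 ∧ y = a then lam b.1 else 0)
      = varr cls lam a b y + (vpsi lam (vstep cls a b y).2 - vpsi lam b.2) := by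
  by_cases hy : cls y = 0
  · rw [vstep_zero cls a b y hy]
    unfold varr
    simp [hy]
  · by_cases h0 : b.1 + 1 = 0
    · rw [vstep_arrive cls a b y hy h0]
      have hb : b.1 = -1 := by linear_combination h0
      have hz : vpsi lam (vhub m).2 = 0 := by
        unfold vpsi vhub
        simp
      rw [hz]
      have hv : varr cls lam a b y = vfv lam a b.2 y := by
        unfold varr
        rw [if_pos ⟨hy, h0⟩]
      rw [hv, hb]
      unfold vfv
      by_cases hya : y = a
      · rw [if_pos ⟨hy, hya⟩, if_pos hya]
        ring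
      · rw [if_neg (fun hh => hya hh.2), if_neg hya]
        ring
    · rw [vstep_move cls a b y hy h0]
      have hv : varr cls lam a b y = 0 := by
        unfold varr
        rw [if_neg (fun hh => h0 hh.2)]
      rw [hv]
      by_cases hya : y = a
      · have hbb : b.2 b.1 = false := by
          by_contra hh
          have hh' : b.2 b.1 = true := by simpa using hh
          have := hJ _ hh'
          omega
        simp only [if_pos hya]
        rw [vpsi_update lam b.2 b.1 hbb, if_pos ⟨hy, hya⟩]
        ring
      · simp only [if_neg hya]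
        rw [if_neg (fun hh => hya hh.2)]
        ring

theorem Wg_eq_wsum (cls : α → ZMod m) (h01 : ∀ x, cls x = 0 ∨ cls x = 1) (lam : ZMod m → ℤ)
    (a : α) : ∀ (w : List α) (b : VSt m),
      Wg cls a lam w b.1
        = wsum (vstep cls a) (fun b y => if cls y ≠ 0 ∧ y = a then lam b.1 else 0) b w
  | [], _ => rfl
  | x :: w, b => by
    simp only [Wg, wsum]
    rw [← vstep_fst cls h01 a b x, Wg_eq_wsum cls h01 lam a w]

/-- `wsum_congr` with `VJ`, `wsum_add`, `wsum_tele` -/
theorem Wg_tele [NeZero m] (cls : α → ZMod m) (h01 : ∀ x, cls x = 0 ∨ cls x = 1)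
    (lam : ZMod m → ℤ) (a : α) (w : List α) (b : VSt m) (hJ : VJ b) :
    Wg cls a lam w b.1 = wsum (vstep cls a) (varr cls lam a) b w
      + (vpsi lam (w.foldl (vstep cls a) b).2 - vpsi lam b.2) := by
  rw [Wg_eq_wsum cls h01 lam a w b]
  rw [wsum_congr (vstep cls a) _ _ VJ (fun b x hb => VJ_step cls a b x hb)
    (fun b y hJ => vlocal_id cls lam a b y hJ) w b hJ]
  rw [wsum_add (vstep cls a) (varr cls lam a)
    (fun b y => vpsi lam (vstep cls a b y).2 - vpsi lam b.2)]
  rw [wsum_tele (vstep cls a) (fun b => vpsi lam b.2)]

end Vale.Agent.Lib.P329
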