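import Vale.Agent.Lib.P329V.VPureZ
import Vale.Agent.Lib.P329V.VTele
import Vale.Agent.Lib.P329V.VAvg
import Vale.Agent.Lib.P329V.VArr

open Computability

namespace Vale.Agent.Lib.P329

variable {α : Type} {m : ℕ} [DecidableEq α]

/-- TASK V5.  Purity of the base automaton: a word some power of which fixes a state without any
increment fixes that state.
If `(w.map cls).sum = 0`: `vpure_zero`.  Otherwise contradiction: let `big = pw w (k * m)`.
(a) `big` fixes `b` (`pw_mul`, `foldl_pw_of_fixed`); (b) `cnt .. (vinc cls P Y) b big = 0`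
(`cnt_pw_zero`); (c) `w.countP (vnz cls) ≠ 0` (else the grading of `w` is zero by `usum_countP`),
so `m ≤ big.countP (vnz cls)` (`countP_pw`), so by `vno_arrival`
`0 < cnt .. (vinc cls VP0 UY0) b big`; (d) by `vexists_arrival` `big = v₁ ++ y :: v₂` with an
arrival at `y`, after which the state is `vhub m` (`vstep_arrive`), so
`b = v₂.foldl _ (vhub m)` satisfies `VJ` (`VJ_hub`, `VJ_run`); (e) `Wg_tele` for `big`, with (a):
`Wg cls a lam big b.1 = wsum .. (varr ..) b big`, which is `v * cnt` by `varr_sum`, and is `0` by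
`Wg_pw_zero`.  So `v * cnt = 0` with `v ≠ 0`, `cnt > 0`. -/
theorem vbase_pure [NeZero m] (cls : α → ZMod m) (h01 : ∀ x, cls x = 0 ∨ cls x = 1)
    (a : α) (lam : ZMod m → ℤ) (hl : HLam lam) (v : ℤ) (hv : v ≠ 0)
    (P : (ZMod m → Bool) → α → Bool) (hP : ∀ U y, P U y = true → vfv lam a U y = v)
    (Y : α → Bool) :
    ∀ (w : List α) (b : VSt m) (k : ℕ), 0 < k →
      (pw w k).foldl (vstep cls a) b = b →
      cnt (vstep cls a) (vinc cls P Y) b (pw w k) = 0 →
      w.foldl (vstep cls a) b = b := by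
  intro w b k hk hb hc
  by_cases h0 : (w.map cls).sum = 0
  · exact vpure_zero cls h01 a w b k hk hb h0
  exfalso
  have hm0 : 0 < m := Nat.pos_of_ne_zero (NeZero.ne m)
  set δ := vstep cls a with hδ
  set big := pw w (k * m) with hbig
  have hfix : big.foldl δ b = b := by
    rw [hbig, pw_mul]
    exact foldl_pw_of_fixed δ (pw w k) b hb m
  have hcz : cnt δ (vinc cls P Y) b big = 0 := cnt_pw_zero δ _ w b k hk hb hc (k * m)
  have hcw : w.countP (vnz cls) ≠ 0 := by
    intro h
    apply h0
    have := usum_countP cls h01 w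
    rw [this]
    have h' : w.countP (fun x => decide (cls x ≠ 0)) = 0 := h
    rw [h']
    simp
  have hcb : m ≤ big.countP (vnz cls) := by
    rw [hbig, countP_pw]
    have h1 : 1 ≤ w.countP (vnz cls) := Nat.pos_of_ne_zero hcw
    calc m = 1 * m * 1 := by ring
      _ ≤ k * m * w.countP (vnz cls) := by gcongr; exact hk
  have hpos : 0 < cnt δ (vinc cls VP0 UY0) b big := by
    by_contra hh
    have h1 : cnt δ (vinc cls VP0 UY0) b big = 0 := by omega
    have := vno_arrival cls a big b h1
    omega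
  obtain ⟨v₁, y, v₂, hv12, hy, harr⟩ := vexists_arrival cls a big b hcb
  have hJ : VJ b := by
    have h1 : big.foldl δ b = v₂.foldl δ (vhub m) := by
      rw [hv12, List.foldl_append, List.foldl_cons, hδ, vstep_arrive cls a _ y hy harr]
    rw [← hfix, h1]
    exact VJ_run cls a v₂ _ VJ_hub
  have h1 := Wg_tele cls h01 lam a big b hJ
  rw [← hδ, hfix, sub_self, add_zero, hδ, varr_sum cls lam a v P hP Y big b hcz,
    hbig, Wg_pw_zero cls a lam hl w h0 k] at h1
  have h2 : (cnt (vstep cls a) (vinc cls VP0 UY0) b (pw w (k * m)) : ℤ) ≠ 0 := by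
    have : 0 < cnt (vstep cls a) (vinc cls VP0 UY0) b (pw w (k * m)) := hpos
    exact_mod_cast this.ne'
  exact (mul_ne_zero hv h2) h1.symm

/-- the layered automaton over the base automaton is recognized in star height one -/
theorem Rec1_vlayrun [NeZero m] [Fintype α] (M : ℕ) [NeZero M]
    (cls : α → ZMod m) (h01 : ∀ x, cls x = 0 ∨ cls x = 1)
    (a : α) (lam : ZMod m → ℤ) (hl : HLam lam) (v : ℤ) (hv : v ≠ 0)
    (P : (ZMod m → Bool) → α → Bool) (hP : ∀ U y, P U y = true → vfv lam a U y = v)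
    (Y : α → Bool) (q₀ : VSt m × ZMod M) :
    Rec1 (fun w : List α => w.foldl (lay M (vstep cls a) (vinc cls P Y)) q₀) :=
  Rec1_of_cut _ (vhub m, 0)
    (lay_counterfree M _ _ (vhub m) (vinc_hub cls a P Y)
      (vbase_pure cls h01 a lam hl v hv P hP Y)) q₀

end Vale.Agent.Lib.P329
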