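import Vale.Agent.Lib.P329V.VDefs

open Computability

namespace Vale.Agent.Lib.P329

variable {α : Type} {m : ℕ} [DecidableEq α]

/-- Once the grading wraps around, the recorded set is forgotten. -/
theorem vmerge [NeZero m] (cls : α → ZMod m) (a : α) :
    ∀ (w : List α) (b b' : VSt m), b.1 = b'.1 → m ≤ b.1.val + w.countP (vnz cls) →
      w.foldl (vstep cls a) b = w.foldl (vstep cls a) b'
  | [], b, b', _, h => by
    have := ZMod.val_lt b.1
    simp at h
    omega
  | x :: w, b, b', hbb, h => by
    simp only [List.foldl_cons]
    by_cases hx : cls x = 0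
    · rw [vstep_zero cls a b x hx, vstep_zero cls a b' x hx]
      apply vmerge cls a w b b' hbb
      have : vnz cls x = false := by simp [vnz, hx]
      rw [List.countP_cons_of_neg (by simp [this])] at h
      exact h
    · by_cases h1 : b.1 + 1 = 0
      · rw [vstep_arrive cls a b x hx h1, vstep_arrive cls a b' x hx (hbb ▸ h1)]
      · rw [vstep_move cls a b x hx h1, vstep_move cls a b' x hx (hbb ▸ h1)]
        apply vmerge cls a w
        · show b.1 + 1 = b'.1 + 1
          rw [hbb]
        · show m ≤ (b.1 + 1).val + _
          rw [uval_succ _ h1]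
          have : vnz cls x = true := by simp [vnz, hx]
          rw [List.countP_cons_of_pos this] at h
          omega

/-- words of letters of grading zero fix all states -/
theorem vrun_kernel (cls : α → ZMod m) (a : α) :
    ∀ (w : List α) (b : VSt m), w.countP (vnz cls) = 0 → w.foldl (vstep cls a) b = b
  | [], _, _ => rfl
  | x :: w, b, h => by
    simp only [List.foldl_cons]
    by_cases hx : cls x = 0
    · rw [vstep_zero cls a b x hx]
      apply vrun_kernel cls a w b
      have : vnz cls x = false := by simp [vnz, hx]
      rw [List.countP_cons_of_neg (by simp [this])] at h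
      exact h
    · have : vnz cls x = true := by simp [vnz, hx]
      rw [List.countP_cons_of_pos this] at h
      omega

/-- A word of grading zero, some power of which fixes a state, fixes that state. -/
theorem vpure_zero [NeZero m] (cls : α → ZMod m) (h01 : ∀ x, cls x = 0 ∨ cls x = 1) (a : α)
    (w : List α) (b : VSt m) (k : ℕ) (hk : 0 < k)
    (hb : (pw w k).foldl (vstep cls a) b = b) (h0 : (w.map cls).sum = 0) :
    w.foldl (vstep cls a) b = b := by
  have hm0 : 0 < m := Nat.pos_of_ne_zero (NeZero.ne m)
  have h1 : ((w.countP (vnz cls) : ℕ) : ZMod m) = 0 := by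
    have := usum_countP cls h01 w
    rw [h0] at this
    exact this.symm
  rw [ZMod.natCast_eq_zero_iff] at h1
  by_cases hc : w.countP (vnz cls) = 0
  · exact vrun_kernel cls a w b hc
  · have hle : m ≤ w.countP (vnz cls) := Nat.le_of_dvd (Nat.pos_of_ne_zero hc) h1
    obtain ⟨j, rfl⟩ : ∃ j, k = j + 1 := ⟨k - 1, by omega⟩
    have hfst : (w.foldl (vstep cls a) b).1 = b.1 := by
      rw [vrun_fst cls h01, h0, add_zero]
    have h2 : w.foldl (vstep cls a) (w.foldl (vstep cls a) b) = w.foldl (vstep cls a) b :=
      vmerge cls a w _ _ hfst (by omega)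
    have h3 : (w ++ pw w j).foldl (vstep cls a) b = b := hb
    rw [List.foldl_append, foldl_pw_of_fixed _ w _ h2 j] at h3
    exact h3

end Vale.Agent.Lib.P329
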