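import Vale.Agent.Lib.P329V.VDefs

open Computability

namespace Vale.Agent.Lib.P329

variable {α : Type} {m : ℕ} [DecidableEq α]

/-- TASK V10.  Linearity and saturation of `VGood`.  Induction on `w`. -/
theorem Wg_expand [NeZero m] (cls : α → ZMod m) (a : α) (ha : cls a ≠ 0) (lam : ZMod m → ℤ) :
    ∀ (w : List α) (g : ZMod m),
      Wg cls a lam w g = ∑ h : ZMod m, lam h * (cntAt cls a h g w : ℤ) := by
  intro w
  induction w with
  | nil => intro g; simp [Wg, cntAt]
  | cons x v ih =>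
    intro g
    simp only [Wg, cntAt]
    rw [ih]
    push_cast
    simp only [mul_add, Finset.sum_add_distrib]
    congr 1
    by_cases hx : x = a
    · subst hx
      simp [ha]
    · simp [hx]

theorem Wg_add (cls : α → ZMod m) (a : α) (lam mu : ZMod m → ℤ) :
    ∀ (w : List α) (g : ZMod m),
      Wg cls a (fun i => lam i + mu i) w g = Wg cls a lam w g + Wg cls a mu w g := by
  intro w
  induction w with
  | nil => intro g; simp [Wg]
  | cons x v ih =>
    intro g
    simp only [Wg]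
    rw [ih]
    split_ifs <;> ring

theorem Wg_smul (cls : α → ZMod m) (a : α) (c : ℤ) (lam : ZMod m → ℤ) :
    ∀ (w : List α) (g : ZMod m),
      Wg cls a (fun i => c * lam i) w g = c * Wg cls a lam w g := by
  intro w
  induction w with
  | nil => intro g; simp [Wg]
  | cons x v ih =>
    intro g
    simp only [Wg]
    rw [ih]
    split_ifs <;> ring

theorem VGood.add {cls : α → ZMod m} {a : α} {lam mu : ZMod m → ℤ}
    (h1 : VGood cls a lam) (h2 : VGood cls a mu) : VGood cls a (fun i => lam i + mu i) := by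
  intro M hM
  have : NeZero M := ⟨hM.ne'⟩
  refine ((h1 M hM).add' (h2 M hM)).congr (fun w => ?_)
  rw [Wg_add]
  push_cast
  rfl

/-- Use the modulus `k * M`: `z = ((k * W : ℤ) : ZMod (k * M))` has
`(z.val : ℤ) = (k * W) % (k * M) = k * (W % M)` (`ZMod.val_intCast`, `Int.mul_emod_mul_of_pos`), so
`((z.val / k : ℕ) : ZMod M) = W`; conclude with `Rec1.comp` and `Rec1.congr`. -/
theorem VGood.sat {cls : α → ZMod m} {a : α} {lam : ZMod m → ℤ} (k : ℕ) (hk : 0 < k)
    (h : VGood cls a (fun i => (k : ℤ) * lam i)) : VGood cls a lam := by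
  intro M hM
  have hkM : 0 < k * M := Nat.mul_pos hk hM
  have : NeZero M := ⟨hM.ne'⟩
  have : NeZero (k * M) := ⟨hkM.ne'⟩
  have h1 := (h (k * M) hkM).comp (fun z : ZMod (k * M) => ((z.val / k : ℕ) : ZMod M))
  refine h1.congr (fun w => ?_)
  rw [Wg_smul]
  set W : ℤ := Wg cls a lam w 0 with hW
  have hkz : (0 : ℤ) < (k : ℤ) := by exact_mod_cast hk
  have h2 : ((((((k : ℤ) * W : ℤ) : ZMod (k * M))).val : ℕ) : ℤ) = (k : ℤ) * (W % (M : ℤ)) := by
    rw [ZMod.val_intCast]
    push_cast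
    exact Int.mul_emod_mul_of_pos _ _ hkz
  have h3 : (((((((k : ℤ) * W : ℤ) : ZMod (k * M))).val / k : ℕ)) : ℤ) = W % (M : ℤ) := by
    rw [Int.natCast_div, h2]
    exact Int.mul_ediv_cancel_left _ hkz.ne'
  have h4 : ((((((k : ℤ) * W : ℤ) : ZMod (k * M))).val / k : ℕ) : ZMod M)
      = (((((((k : ℤ) * W : ℤ) : ZMod (k * M))).val / k : ℕ) : ℤ) : ZMod M) := by
    exact (Int.cast_natCast _).symm
  rw [h4, h3, ZMod.intCast_mod]

end Vale.Agent.Lib.P329
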